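import Vale.Agent.P070h8.Final

namespace Vale.Agent.Results.P070.Counterexample

universe u v w

/-- a representation of `A` on the Hilbert space `H`: a star homomorphism into the bounded operators -/
noncomputable abbrev Rep (A : Type) [NonUnitalCStarAlgebra A] (H : Type u) [NormedAddCommGroup H] [InnerProductSpace ℂ H]
    [CompleteSpace H] : Type u := A →⋆ₙₐ[ℂ] (H →L[ℂ] H)

variable {A : Type} [NonUnitalCStarAlgebra A] {H : Type u} [NormedAddCommGroup H] [InnerProductSpace ℂ H]
  [CompleteSpace H] {K : Type v} [NormedAddCommGroup K] [InnerProductSpace ℂ K] [CompleteSpace K]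

/-- the operator `π a` -/
noncomputable def op (π : Rep A H) (a : A) : H →L[ℂ] H := π a

/-- the operator `π a` applied to the vector `x` -/
noncomputable def act (π : Rep A H) (a : A) (x : H) : H := op π a x

/-- nonzero, and no closed invariant subspace besides `0` and the whole space -/
def IsIrreducible (π : Rep A H) : Prop :=
  (∃ a x, act π a x ≠ 0) ∧ ∀ M : Submodule ℂ H, IsClosed (M : Set H) → (∀ a, ∀ x ∈ M, act π a x ∈ M) → M = ⊥ ∨ M = ⊤

/-- unitary equivalence -/
def Equivalent (π : Rep A H) (σ : Rep A K) : Prop :=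
  ∃ U : H ≃ₗᵢ[ℂ] K, ∀ (a : A) (x : H), U (act π a x) = act σ a (U x)

/-- `π` is injective and its range is the set of all compact operators, i.e. `π` is an isomorphism of `A` onto `K(H)` -/
def IsIsoOntoCompacts (π : Rep A H) : Prop :=
  Function.Injective (op π) ∧ Set.range (op π) = {T : H →L[ℂ] H | IsCompactOperator T}

/-- Naimark's property (N) -/
def PropertyN (A : Type) [NonUnitalCStarAlgebra A] : Prop :=
  Nontrivial A ∧ ∀ (H : Type u) [NormedAddCommGroup H] [InnerProductSpace ℂ H] [CompleteSpace H]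
    (K : Type v) [NormedAddCommGroup K] [InnerProductSpace ℂ K] [CompleteSpace K] (π : Rep A H) (σ : Rep A K),
    IsIrreducible π → IsIrreducible σ → Equivalent π σ

open Vale.Agent.P070h8 in
theorem result : ∃ (A : Type) (_ : NonUnitalCStarAlgebra A), PropertyN.{u, v} A ∧
    ∀ (H : Type w) [NormedAddCommGroup H] [InnerProductSpace ℂ H] [CompleteSpace H] (π : Rep A H),
      ¬ IsIsoOntoCompacts π := by
  obtain ⟨Z⟩ := exists_sys
  obtain ⟨ι, H0, _, _, _, U, ⟨o⟩⟩ := exists_uni Z
  refine ⟨U.A o, inferInstance, ⟨⟨1, 0, U.one_ne o⟩, fun H _ _ _ K _ _ _ π σ hπ hσ => ?_⟩,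
    fun H _ _ _ π h => U.not_compact o H ⟨π, h⟩⟩
  obtain ⟨W1, h1⟩ := U.equiv' o π (by rintro rfl; obtain ⟨a, x, h⟩ := hπ.1; exact h rfl) hπ.2
  obtain ⟨W2, h2⟩ := U.equiv' o σ (by rintro rfl; obtain ⟨a, x, h⟩ := hσ.1; exact h rfl) hσ.2
  refine ⟨W1.symm.trans W2, fun a x => ?_⟩
  obtain ⟨y, rfl⟩ := W1.surjective x
  show W2 (W1.symm (π a (W1 y))) = σ a (W2 (W1.symm (W1 y)))
  rw [← h1, W1.symm_apply_apply, W1.symm_apply_apply, h2]

end Vale.Agent.Results.P070.Counterexample
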